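import Mathlib
import Vale.Agent.H1.P002.Defs
import Vale.Agent.H1.P002.DefsMono
import Vale.Agent.H1.P002.FinalC

namespace Vale.Agent.Results.P002.A0_DensityAndIntegralPoints

open Vale.Agent.H1.P002

/-- Potential density AND existence of integral points with prescribed quasi-unipotent boundary
data, for every rank `r` and with one number field `L`. Fix elements `γ 0, ..., γ (s-1)` of a
finitely generated group `Γ` and polynomials `q i` all of whose roots are `n`-th roots of unity,
and consider the representations `ρ` with `charpoly (ρ (γ i)) = q i` for all `i`.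

* For every `Γ`: every trace polynomial that vanishes on all such monomial representations
  `Γ → SL_r(𝓞 L)` vanishes on all such monomial representations `Γ → SL_r(ℂ)`.
* If some term of the lower central series of `Γ` is commutative (for instance `Γ` nilpotent,
  or `Γ` metabelian), it vanishes on all such representations `Γ → SL_r(ℂ)`.
* For such `Γ`, if there is such a representation `Γ → SL_r(ℂ)` at all, then there is such a
  monomial representation `Γ → SL_r(𝓞 L)` (this is the second point for the constant `1`).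

The case `s = 0` is the case without boundary conditions. -/
theorem result (Γ : Type) [Group Γ] [Group.FG Γ] (r s : ℕ) (γ : Fin s → Γ)
    (n : ℕ) (hn : n ≠ 0) (q : Fin s → Polynomial ℂ)
    (hq : ∀ i (μ : ℂ), (q i).IsRoot μ → μ ^ n = 1) :
    ∃ (L : Type) (_ : Field L) (_ : NumberField L) (σ : L →+* ℂ),
      (∀ f ∈ traceAlgebra Γ r,
        (∀ ρ₀ : Γ →* Matrix.SpecialLinearGroup (Fin r) (NumberField.RingOfIntegers L),
            IsMonomialRep ρ₀ →
            (∀ i, (((Matrix.SpecialLinearGroup.map
              (σ.comp (algebraMap (NumberField.RingOfIntegers L) L))).comp ρ₀) (γ i) :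
                Matrix (Fin r) (Fin r) ℂ).charpoly = q i) →
            f ((Matrix.SpecialLinearGroup.map
              (σ.comp (algebraMap (NumberField.RingOfIntegers L) L))).comp ρ₀) = 0) →
        (∀ ρ : Γ →* Matrix.SpecialLinearGroup (Fin r) ℂ, IsMonomialRep ρ →
          (∀ i, (ρ (γ i) : Matrix (Fin r) (Fin r) ℂ).charpoly = q i) → f ρ = 0) ∧
        ((∃ m, ∀ a ∈ (⊤ : Subgroup Γ).lowerCentralSeries m,
            ∀ b ∈ (⊤ : Subgroup Γ).lowerCentralSeries m, a * b = b * a) →
          ∀ ρ : Γ →* Matrix.SpecialLinearGroup (Fin r) ℂ,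
          (∀ i, (ρ (γ i) : Matrix (Fin r) (Fin r) ℂ).charpoly = q i) → f ρ = 0)) ∧
      ((∃ m, ∀ a ∈ (⊤ : Subgroup Γ).lowerCentralSeries m,
            ∀ b ∈ (⊤ : Subgroup Γ).lowerCentralSeries m, a * b = b * a) →
        (∃ ρ : Γ →* Matrix.SpecialLinearGroup (Fin r) ℂ,
          ∀ i, (ρ (γ i) : Matrix (Fin r) (Fin r) ℂ).charpoly = q i) →
        ∃ ρ₀ : Γ →* Matrix.SpecialLinearGroup (Fin r) (NumberField.RingOfIntegers L),
          IsMonomialRep ρ₀ ∧
          ∀ i, (((Matrix.SpecialLinearGroup.map
            (σ.comp (algebraMap (NumberField.RingOfIntegers L) L))).comp ρ₀) (γ i) :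
              Matrix (Fin r) (Fin r) ℂ).charpoly = q i) := by
  obtain ⟨L, hF, hNF, σ, h⟩ := mono_abnil_density_bd Γ r s γ n hn q hq
  refine ⟨L, hF, hNF, σ, h, ?_⟩
  rintro hm ⟨ρ, hρ⟩
  by_contra hne
  have h1 : (1 : (Γ →* Matrix.SpecialLinearGroup (Fin r) ℂ) → ℂ) ρ = 0 :=
    (h 1 (Subalgebra.one_mem (traceAlgebra Γ r))
      (fun ρ₀ hmono hc => absurd ⟨ρ₀, hmono, hc⟩ hne)).2 hm ρ hρ
  exact one_ne_zero h1

end Vale.Agent.Results.P002.A0_DensityAndIntegralPoints
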