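import Mathlib
import Vale.Agent.H1.P002.Defs
import Vale.Agent.H1.P002.Field

namespace Vale.Agent.Results.P002.A_AbelianPi1

open Vale.Agent.H1.P002

/-- Potential density of integral points in the `SL_r`-character variety of a finitely
generated commutative group `Γ` (for instance the fundamental group of an abelian variety or of
an algebraic torus), for every rank `r`: there are a number field `L` and an embedding
`σ : L → ℂ` such that every trace polynomial that vanishes on all representations
`Γ → SL_r(𝓞 L)` vanishes on all representations `Γ → SL_r(ℂ)`. -/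
theorem result (Γ : Type) [CommGroup Γ] [Group.FG Γ] (r : ℕ) :
    ∃ (L : Type) (_ : Field L) (_ : NumberField L) (σ : L →+* ℂ),
      ∀ f ∈ traceAlgebra Γ r,
        (∀ ρ₀ : Γ →* Matrix.SpecialLinearGroup (Fin r) (NumberField.RingOfIntegers L),
            f ((Matrix.SpecialLinearGroup.map
              (σ.comp (algebraMap (NumberField.RingOfIntegers L) L))).comp ρ₀) = 0) →
        ∀ ρ : Γ →* Matrix.SpecialLinearGroup (Fin r) ℂ, f ρ = 0 :=
  abelian_density Γ r

end Vale.Agent.Results.P002.A_AbelianPi1
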