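import Mathlib
import Vale.Agent.H1.P002.Defs
import Vale.Agent.H1.P002.DefsMono
import Vale.Agent.H1.P002.Final

namespace Vale.Agent.Results.P002.B_NilpotentMonomial

open Vale.Agent.H1.P002

/-- Potential density of integral points, for every rank `r` and with one number field `L`:

* for every finitely generated group `Γ`, on the monomial locus of its `SL_r`-character
  variety: every trace polynomial that vanishes on all monomial representations
  `Γ → SL_r(𝓞 L)` vanishes on all monomial representations `Γ → SL_r(ℂ)`;
* if moreover `Γ` is nilpotent (for instance the fundamental group of an abelian variety, of an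
  algebraic torus, or of a nilmanifold-like variety), on the whole character variety: such a
  trace polynomial vanishes on all representations `Γ → SL_r(ℂ)`. -/
theorem result (Γ : Type) [Group Γ] [Group.FG Γ] (r : ℕ) :
    ∃ (L : Type) (_ : Field L) (_ : NumberField L) (σ : L →+* ℂ),
      ∀ f ∈ traceAlgebra Γ r,
        (∀ ρ₀ : Γ →* Matrix.SpecialLinearGroup (Fin r) (NumberField.RingOfIntegers L),
            IsMonomialRep ρ₀ →
            f ((Matrix.SpecialLinearGroup.map
              (σ.comp (algebraMap (NumberField.RingOfIntegers L) L))).comp ρ₀) = 0) →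
        (∀ ρ : Γ →* Matrix.SpecialLinearGroup (Fin r) ℂ, IsMonomialRep ρ → f ρ = 0) ∧
        (Group.IsNilpotent Γ → ∀ ρ : Γ →* Matrix.SpecialLinearGroup (Fin r) ℂ, f ρ = 0) :=
  mono_nilpotent_density Γ r

end Vale.Agent.Results.P002.B_NilpotentMonomial
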